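import Vale.Agent.P091.H74.Spec

/-! # P091, row PEND (helper733): pending scales cost nothing

`x` is *pending* for the levels `a x ≤ j < b x`; in every node of level `j` the pending points
have density at most `M`.  Then the bilinear form of the pending scales is at most
`4 (M · |X| · E)^(1/2)`, `E` the energy of the letter. -/

open Finset Vale.Agent.P091.Spec

namespace Vale.Agent.P091.H733

/-- sum over a node -/
noncomputable def ns (n j c : ℕ) (F : ℕ → ℂ) : ℂ := ∑ i ∈ nd n j c, F i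

theorem nd_split {n j c : ℕ} (hj : j < n) :
    nd n j c = nd n (j + 1) (2 * c) ∪ nd n (j + 1) (2 * c + 1) := by
  unfold nd
  have h : 2 ^ (n - j) = 2 * 2 ^ (n - (j + 1)) := by
    rw [← pow_succ']; congr 1; omega
  ext i
  simp only [mem_Ico, mem_union, h]
  constructor
  · rintro ⟨h1, h2⟩
    by_cases h3 : i < (2 * c + 1) * 2 ^ (n - (j + 1))
    · left; constructor <;> nlinarith
    · right; constructor <;> nlinarith
  · have hp : 0 < 2 ^ (n - (j + 1)) := by positivity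
    rintro (⟨h1, h2⟩ | ⟨h1, h2⟩) <;> constructor <;> nlinarith

theorem nd_disj {n j c : ℕ} : Disjoint (nd n (j + 1) (2 * c)) (nd n (j + 1) (2 * c + 1)) := by
  unfold nd
  rw [Finset.disjoint_left]
  intro i h1 h2
  simp only [mem_Ico] at h1 h2
  omega

theorem sum_nd_split {β : Type*} [AddCommMonoid β] {n j c : ℕ} (hj : j < n) (F : ℕ → β) :
    ∑ i ∈ nd n j c, F i
      = ∑ i ∈ nd n (j + 1) (2 * c), F i + ∑ i ∈ nd n (j + 1) (2 * c + 1), F i := by
  rw [nd_split hj, sum_union nd_disj]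

theorem sum_two_mul {β : Type*} [AddCommMonoid β] (m : ℕ) (h : ℕ → β) :
    ∑ c ∈ range (2 * m), h c = ∑ c ∈ range m, (h (2 * c) + h (2 * c + 1)) := by
  induction m with
  | zero => simp
  | succ m ih =>
    rw [show 2 * (m + 1) = 2 * m + 1 + 1 by ring, sum_range_succ, sum_range_succ, ih,
      sum_range_succ, add_assoc]

/-- the nodes of one level partition the leaves -/
theorem sum_levels {β : Type*} [AddCommMonoid β] {n : ℕ} (F : ℕ → β) :
    ∀ j, j ≤ n → ∑ c ∈ range (2 ^ j), ∑ i ∈ nd n j c, F i = ∑ i ∈ range (2 ^ n), F i := by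
  intro j
  induction j with
  | zero => intro _; simp [nd]
  | succ j ih =>
    intro hj
    rw [pow_succ', sum_two_mul, ← ih (by omega)]
    exact sum_congr rfl fun c _ => (sum_nd_split (by omega) F).symm

theorem anc_of_mem {n j c i : ℕ} (h : i ∈ nd n j c) : anc n j i = c := by
  unfold nd at h; unfold anc
  simp only [mem_Ico] at h
  exact Nat.div_eq_of_lt_le h.1 h.2

theorem avC_split {n j c : ℕ} (hj : j < n) (F : ℕ → ℂ) :
    avC n j c F = (avC n (j + 1) (2 * c) F + avC n (j + 1) (2 * c + 1) F) / 2 := by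
  unfold avC
  rw [sum_nd_split hj]
  have h : (2:ℂ) ^ (n - j) = 2 * 2 ^ (n - (j + 1)) := by
    rw [← pow_succ']; congr 1; omega
  have h2 : (2:ℂ) ^ (n - (j + 1)) ≠ 0 := pow_ne_zero _ two_ne_zero
  rw [h]; field_simp

theorem av_split {n j c : ℕ} (hj : j < n) (F : ℕ → ℝ) :
    av n j c F = (av n (j + 1) (2 * c) F + av n (j + 1) (2 * c + 1) F) / 2 := by
  unfold av
  rw [sum_nd_split hj]
  have h : (2:ℝ) ^ (n - j) = 2 * 2 ^ (n - (j + 1)) := by
    rw [← pow_succ']; congr 1; omega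
  have h2 : (2:ℝ) ^ (n - (j + 1)) ≠ 0 := by positivity
  rw [h]; field_simp

theorem av_nonneg {n j c : ℕ} {F : ℕ → ℝ} (h : ∀ i, 0 ≤ F i) : 0 ≤ av n j c F :=
  div_nonneg (sum_nonneg fun i _ => h i) (by positivity)

/-- a child has at most twice the average of its parent -/
theorem av_child_le {n j c : ℕ} (hj : j < n) {F : ℕ → ℝ} (h : ∀ i, 0 ≤ F i) :
    av n (j + 1) c F ≤ 2 * av n j (c / 2) F := by
  rw [av_split hj]
  have h0 := av_nonneg (n := n) (j := j + 1) (c := 2 * (c / 2)) h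
  have h1 := av_nonneg (n := n) (j := j + 1) (c := 2 * (c / 2) + 1) h
  rcases Nat.even_or_odd c with hc | hc
  · have : c = 2 * (c / 2) := by rcases hc with ⟨r, rfl⟩; omega
    rw [← this]
    have h3 : av n (j + 1) c F = av n (j + 1) (2 * (c / 2)) F := by rw [← this]
    have h1' : 0 ≤ av n (j + 1) (c + 1) F := av_nonneg h
    linarith
  · have : c = 2 * (c / 2) + 1 := by rcases hc with ⟨r, rfl⟩; omega
    rw [← this]
    linarith

theorem norm_avC_le {n j c : ℕ} (F : ℕ → ℂ) : ‖avC n j c F‖ ≤ av n j c fun i => ‖F i‖ := by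
  unfold avC av
  rw [norm_div, norm_pow]
  simp only [Complex.norm_ofNat]
  exact div_le_div_of_nonneg_right (norm_sum_le _ _) (by positivity)

/-- the second moment of the averages of level `ℓ` -/
noncomputable def S (n ℓ : ℕ) (F : ℕ → ℂ) : ℝ := ∑ c ∈ range (2 ^ ℓ), ‖avC n ℓ c F‖ ^ 2 / 2 ^ ℓ

theorem S_nonneg (n ℓ : ℕ) (F : ℕ → ℂ) : 0 ≤ S n ℓ F := sum_nonneg fun _ _ => by positivity

theorem sg_eq {n j c t i : ℕ} (ht : t < 4) (h : i ∈ nd n (j + 2) (4 * c + t)) :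
    sg n j i = if t = 0 ∨ t = 3 then 1 else -1 := by
  have h1 := anc_of_mem h
  unfold anc at h1
  unfold sg
  rw [show n - j - 2 = n - (j + 2) by omega, h1]
  have : (4 * c + t) % 4 = t := by omega
  rw [this]

theorem avC_sg {n j c : ℕ} (hj : j + 2 ≤ n) (F : ℕ → ℂ) :
    avC n j c (fun i => F i * sg n j i)
      = (avC n (j + 2) (4 * c) F - avC n (j + 2) (4 * c + 1) F
          - avC n (j + 2) (4 * c + 2) F + avC n (j + 2) (4 * c + 3) F) / 4 := by
  rw [avC_split (by omega : j < n), avC_split (by omega : j + 1 < n),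
    avC_split (by omega : j + 1 < n)]
  have e0 : 2 * (2 * c) = 4 * c + 0 := by ring
  have e1 : 2 * (2 * c) + 1 = 4 * c + 1 := by ring
  have e2 : 2 * (2 * c + 1) = 4 * c + 2 := by ring
  have e3 : 2 * (2 * c + 1) + 1 = 4 * c + 3 := by ring
  rw [e3, e2, e1, e0, show j + 1 + 1 = j + 2 by ring]
  have k : ∀ t, t < 4 → avC n (j + 2) (4 * c + t) (fun i => F i * sg n j i)
      = (if t = 0 ∨ t = 3 then 1 else -1) * avC n (j + 2) (4 * c + t) F := by
    intro t ht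
    unfold avC
    rw [mul_div_assoc', mul_sum]
    congr 1
    refine sum_congr rfl fun i hi => ?_
    show F i * (sg n j i : ℂ) = _
    rw [sg_eq ht hi]
    split_ifs <;> push_cast <;> ring
  rw [k 0 (by norm_num), k 1 (by norm_num), k 2 (by norm_num), k 3 (by norm_num)]
  norm_num
  ring

theorem norm_sq_four (x0 x1 x2 x3 : ℂ) :
    ‖(x0 - x1 - x2 + x3) / 4‖ ^ 2 ≤
      (‖x0‖ ^ 2 + ‖x1‖ ^ 2 + ‖x2‖ ^ 2 + ‖x3‖ ^ 2) / 4
        - (‖(x0 + x1) / 2‖ ^ 2 + ‖(x2 + x3) / 2‖ ^ 2) / 2 := by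
  have h : ∀ z : ℂ, ‖z‖ ^ 2 = z.re ^ 2 + z.im ^ 2 := fun z => by
    rw [← Complex.normSq_eq_norm_sq, Complex.normSq_apply]; ring
  simp only [h, Complex.div_ofNat_re, Complex.div_ofNat_im, Complex.add_re, Complex.add_im,
    Complex.sub_re, Complex.sub_im]
  nlinarith [sq_nonneg ((x0.re - x1.re) + (x2.re - x3.re)),
    sq_nonneg ((x0.im - x1.im) + (x2.im - x3.im))]

/-- the patterned averages are controlled by two martingale differences -/
theorem sum_sg_le {n j : ℕ} (hj : j + 2 ≤ n) (F : ℕ → ℂ) :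
    ∑ c ∈ range (2 ^ j), ‖avC n j c (fun i => F i * sg n j i)‖ ^ 2 / 2 ^ j
      ≤ S n (j + 2) F - S n (j + 1) F := by
  have h2 : S n (j + 2) F = ∑ c ∈ range (2 ^ j),
      (‖avC n (j + 2) (4 * c) F‖ ^ 2 + ‖avC n (j + 2) (4 * c + 1) F‖ ^ 2
        + ‖avC n (j + 2) (4 * c + 2) F‖ ^ 2 + ‖avC n (j + 2) (4 * c + 3) F‖ ^ 2) / 4 / 2 ^ j := by
    unfold S
    rw [show 2 ^ (j + 2) = 2 * (2 * 2 ^ j) by ring, sum_two_mul, sum_two_mul]
    refine sum_congr rfl fun c _ => ?_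
    rw [show 2 * (2 * c + 1) + 1 = 4 * c + 3 by ring, show 2 * (2 * c + 1) = 4 * c + 2 by ring,
      show 2 * (2 * c) + 1 = 4 * c + 1 by ring, show 2 * (2 * c) = 4 * c by ring,
      show (2:ℝ) ^ (j + 2) = 2 ^ j * 4 by ring]
    field_simp
    ring
  have h1 : S n (j + 1) F = ∑ c ∈ range (2 ^ j),
      (‖avC n (j + 1) (2 * c) F‖ ^ 2 + ‖avC n (j + 1) (2 * c + 1) F‖ ^ 2) / 2 / 2 ^ j := by
    unfold S
    rw [show 2 ^ (j + 1) = 2 * 2 ^ j by ring, sum_two_mul]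
    refine sum_congr rfl fun c _ => ?_
    rw [show (2:ℝ) ^ (j + 1) = 2 ^ j * 2 by ring]
    field_simp
  rw [h1, h2, ← sum_sub_distrib]
  refine sum_le_sum fun c _ => ?_
  rw [avC_sg hj, ← sub_div, avC_split (c := 2 * c) (by omega : j + 1 < n),
    avC_split (c := 2 * c + 1) (by omega : j + 1 < n),
    show 2 * (2 * c + 1) + 1 = 4 * c + 3 by ring, show 2 * (2 * c + 1) = 4 * c + 2 by ring,
    show 2 * (2 * c) + 1 = 4 * c + 1 by ring, show 2 * (2 * c) = 4 * c by ring,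
    show j + 1 + 1 = j + 2 by ring]
  exact div_le_div_of_nonneg_right (norm_sq_four _ _ _ _) (by positivity)

theorem avC_sub {n j c : ℕ} (F G : ℕ → ℂ) :
    avC n j c F - avC n j c G = avC n j c fun i => F i - G i := by
  unfold avC; rw [← sub_div, sum_sub_distrib]

/-- sum of the averages over one level -/
theorem sum_av {n ℓ : ℕ} (hl : ℓ ≤ n) (F : ℕ → ℝ) :
    ∑ c ∈ range (2 ^ ℓ), av n ℓ c F / 2 ^ ℓ = (∑ i ∈ range (2 ^ n), F i) / 2 ^ n := by
  rw [← sum_levels F ℓ hl, sum_div]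
  refine sum_congr rfl fun c _ => ?_
  unfold av
  rw [div_div, ← pow_add, show n - ℓ + ℓ = n by omega]

theorem S_le {n ℓ : ℕ} (hl : ℓ ≤ n) (F : ℕ → ℂ) (B : ℝ)
    (hB : ∀ c < 2 ^ ℓ, av n ℓ c (fun i => ‖F i‖) ≤ B) :
    S n ℓ F ≤ B * ((∑ i ∈ range (2 ^ n), ‖F i‖) / 2 ^ n) := by
  rw [← sum_av hl, mul_sum]
  refine sum_le_sum fun c hc => ?_
  have h1 := norm_avC_le (n := n) (j := ℓ) (c := c) F
  have h2 := hB c (mem_range.1 hc)
  have h0 := norm_nonneg (avC n ℓ c F)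
  rw [← mul_div_assoc]
  refine div_le_div_of_nonneg_right ?_ (by positivity)
  nlinarith [av_nonneg (n := n) (j := ℓ) (c := c) (F := fun i => ‖F i‖) fun i => norm_nonneg _]

theorem S_sub_le {n ℓ : ℕ} (hl : ℓ ≤ n) (F G : ℕ → ℂ) (B : ℝ)
    (hB : ∀ c < 2 ^ ℓ, av n ℓ c (fun i => ‖F i‖) + av n ℓ c (fun i => ‖G i‖) ≤ B) :
    S n ℓ F - S n ℓ G ≤ B * ((∑ i ∈ range (2 ^ n), ‖F i - G i‖) / 2 ^ n) := by
  rw [← sum_av hl, mul_sum]
  unfold S
  rw [← sum_sub_distrib]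
  refine sum_le_sum fun c hc => ?_
  rw [← sub_div, ← mul_div_assoc]
  refine div_le_div_of_nonneg_right ?_ (by positivity)
  have h1 := norm_avC_le (n := n) (j := ℓ) (c := c) F
  have h2 := norm_avC_le (n := n) (j := ℓ) (c := c) G
  have h3 := norm_avC_le (n := n) (j := ℓ) (c := c) fun i => F i - G i
  rw [← avC_sub] at h3
  have h4 := hB c (mem_range.1 hc)
  have h5 : ‖avC n ℓ c F‖ - ‖avC n ℓ c G‖ ≤ ‖avC n ℓ c F - avC n ℓ c G‖ := norm_sub_norm_le _ _
  have h6 : 0 ≤ av n ℓ c fun i => ‖F i - G i‖ := av_nonneg fun i => norm_nonneg _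
  have h7 : ‖avC n ℓ c F‖ ^ 2 - ‖avC n ℓ c G‖ ^ 2
      = (‖avC n ℓ c F‖ - ‖avC n ℓ c G‖) * (‖avC n ℓ c F‖ + ‖avC n ℓ c G‖) := by ring
  rw [h7]
  have h8 : 0 ≤ ‖avC n ℓ c F‖ + ‖avC n ℓ c G‖ := by positivity
  calc (‖avC n ℓ c F‖ - ‖avC n ℓ c G‖) * (‖avC n ℓ c F‖ + ‖avC n ℓ c G‖)
      ≤ (av n ℓ c fun i => ‖F i - G i‖) * (‖avC n ℓ c F‖ + ‖avC n ℓ c G‖) :=
        mul_le_mul_of_nonneg_right (h5.trans h3) h8
    _ ≤ (av n ℓ c fun i => ‖F i - G i‖) * B := mul_le_mul_of_nonneg_left (by linarith) h6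
    _ = B * (av n ℓ c fun i => ‖F i - G i‖) := mul_comm _ _

theorem telesc (g h : ℕ → ℝ) (k : ℕ) :
    ∑ j ∈ range (k + 1), (g j - h j) = g k - h 0 + ∑ j ∈ range k, (g j - h (j + 1)) := by
  induction k with
  | zero => simp
  | succ k ih => rw [sum_range_succ, ih, sum_range_succ (fun j => g j - h (j + 1))]; ring

/-- `16 M m` bound for the patterned averages of a family of functions whose averages are
at most `M` and whose total variation in the level is at most `2m`. -/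
theorem core {n : ℕ} (hn : 2 ≤ n) (F : ℕ → ℕ → ℂ) {M m : ℝ} (hM : 0 ≤ M)
    (hdens : ∀ j, j + 2 ≤ n → ∀ c < 2 ^ j, av n j c (fun i => ‖F j i‖) ≤ M)
    (hlast : (∑ i ∈ range (2 ^ n), ‖F (n - 2) i‖) / 2 ^ n ≤ m)
    (hvar : ∑ j ∈ range (n - 2), (∑ i ∈ range (2 ^ n), ‖F j i - F (j + 1) i‖) / 2 ^ n ≤ 2 * m) :
    ∑ j ∈ range (n - 1), ∑ c ∈ range (2 ^ j),
      ‖avC n j c (fun i => F j i * sg n j i)‖ ^ 2 / 2 ^ j ≤ 16 * M * m := by
  have d1 : ∀ j, j + 2 ≤ n → ∀ c < 2 ^ (j + 1), av n (j + 1) c (fun i => ‖F j i‖) ≤ 2 * M := by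
    intro j hj c hc
    refine (av_child_le (by omega) fun i => norm_nonneg _).trans ?_
    have := hdens j hj (c / 2) (by rw [pow_succ] at hc; omega)
    linarith
  have d2 : ∀ j, j + 2 ≤ n → ∀ c < 2 ^ (j + 2), av n (j + 2) c (fun i => ‖F j i‖) ≤ 4 * M := by
    intro j hj c hc
    refine (av_child_le (by omega) fun i => norm_nonneg _).trans ?_
    have := d1 j hj (c / 2) (by rw [pow_succ] at hc; omega)
    linarith
  have s1 : ∑ j ∈ range (n - 1), ∑ c ∈ range (2 ^ j),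
      ‖avC n j c (fun i => F j i * sg n j i)‖ ^ 2 / 2 ^ j
      ≤ ∑ j ∈ range (n - 1), (S n (j + 2) (F j) - S n (j + 1) (F j)) := by
    refine sum_le_sum fun j hj => sum_sg_le ?_ _
    rw [mem_range] at hj; omega
  obtain ⟨k, rfl⟩ : ∃ k, n = k + 2 := ⟨n - 2, by omega⟩
  have e1 : k + 2 - 1 = k + 1 := by omega
  have e2 : k + 2 - 2 = k := by omega
  rw [e1] at s1 ⊢
  rw [e2] at hlast hvar
  refine s1.trans ?_
  rw [telesc (fun j => S (k + 2) (j + 2) (F j)) (fun j => S (k + 2) (j + 1) (F j))]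
  have t1 : S (k + 2) (k + 2) (F k) ≤ 4 * M * m :=
    (S_le le_rfl (F k) (4 * M) (d2 k le_rfl)).trans
      (mul_le_mul_of_nonneg_left hlast (by positivity))
  have t2 : 0 ≤ S (k + 2) (0 + 1) (F 0) := S_nonneg _ _ _
  have t3 : ∑ j ∈ range k, (S (k + 2) (j + 2) (F j) - S (k + 2) (j + 1 + 1) (F (j + 1)))
      ≤ 6 * M * (2 * m) := by
    refine le_trans (sum_le_sum fun j hj => ?_) (le_trans (le_of_eq (mul_sum _ _ _).symm)
      (mul_le_mul_of_nonneg_left hvar (by positivity : 0 ≤ 6 * M)))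
    rw [mem_range] at hj
    refine S_sub_le (by omega) _ _ _ fun c hc => ?_
    have a1 := d2 j (by omega) c hc
    have a2 := d1 (j + 1) (by omega) c hc
    linarith
  show S (k + 2) (k + 2) (F k) - S (k + 2) (0 + 1) (F 0) + _ ≤ _
  linarith

/-- the energy of `d` over the nodes where `F` lives -/
noncomputable def En (n : ℕ) (F : ℕ → ℕ → ℂ) (d : ℕ → ℕ → ℂ) : ℝ :=
  ∑ j ∈ range (n - 1), ∑ c ∈ range (2 ^ j),
    if ∃ i ∈ nd n j c, F j i ≠ 0 then ‖d j c‖ ^ 2 / 2 ^ j else 0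

theorem En_nonneg (n : ℕ) (F : ℕ → ℕ → ℂ) (d : ℕ → ℕ → ℂ) : 0 ≤ En n F d :=
  sum_nonneg fun _ _ => sum_nonneg fun _ _ => by split_ifs <;> positivity

/-- **PEND, one letter.** -/
theorem pend_one {n : ℕ} (hn : 2 ≤ n) (F : ℕ → ℕ → ℂ) (d : ℕ → ℕ → ℂ) {M m : ℝ} (hM : 0 ≤ M)
    (hdens : ∀ j, j + 2 ≤ n → ∀ c < 2 ^ j, av n j c (fun i => ‖F j i‖) ≤ M)
    (hlast : (∑ i ∈ range (2 ^ n), ‖F (n - 2) i‖) / 2 ^ n ≤ m)
    (hvar : ∑ j ∈ range (n - 2), (∑ i ∈ range (2 ^ n), ‖F j i - F (j + 1) i‖) / 2 ^ n ≤ 2 * m) :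
    ‖∑ j ∈ range (n - 1), (∑ i ∈ range (2 ^ n), F j i * sg n j i * d j (anc n j i)) / 2 ^ n‖
      ≤ 4 * √(M * m * En n F d) := by
  have hE := En_nonneg n F d
  have hm : 0 ≤ m := le_trans (by positivity) hlast
  have h1 : ∀ j ∈ range (n - 1),
      (∑ i ∈ range (2 ^ n), F j i * sg n j i * d j (anc n j i)) / (2:ℂ) ^ n
      = ∑ c ∈ range (2 ^ j), avC n j c (fun i => F j i * sg n j i)
        * (if ∃ i ∈ nd n j c, F j i ≠ 0 then d j c else 0) / 2 ^ j := by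
    intro j hj
    rw [mem_range] at hj
    rw [← sum_levels _ j (by omega : j ≤ n), sum_div]
    refine sum_congr rfl fun c _ => ?_
    have h2 : ∑ i ∈ nd n j c, F j i * sg n j i * d j (anc n j i)
        = (∑ i ∈ nd n j c, F j i * sg n j i)
          * (if ∃ i ∈ nd n j c, F j i ≠ 0 then d j c else 0) := by
      split_ifs with hc
      · rw [sum_mul]
        exact sum_congr rfl fun i hi => by rw [anc_of_mem hi]
      · push Not at hc
        rw [mul_zero]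
        exact sum_eq_zero fun i hi => by rw [hc i hi]; ring
    rw [h2]
    unfold avC
    have h3 : (2:ℂ) ^ n = 2 ^ (n - j) * 2 ^ j := by rw [← pow_add]; congr 1; omega
    rw [h3]
    have h4 : (2:ℂ) ^ (n - j) ≠ 0 := pow_ne_zero _ two_ne_zero
    have h5 : (2:ℂ) ^ j ≠ 0 := pow_ne_zero _ two_ne_zero
    field_simp
  rw [sum_congr rfl h1]
  have h2 : ‖∑ j ∈ range (n - 1), ∑ c ∈ range (2 ^ j), avC n j c (fun i => F j i * sg n j i)
        * (if ∃ i ∈ nd n j c, F j i ≠ 0 then d j c else 0) / 2 ^ j‖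
      ≤ ∑ j ∈ range (n - 1), ∑ c ∈ range (2 ^ j), (‖avC n j c (fun i => F j i * sg n j i)‖ / √(2 ^ j))
        * (‖(if ∃ i ∈ nd n j c, F j i ≠ 0 then d j c else 0)‖ / √(2 ^ j)) := by
    refine (norm_sum_le _ _).trans (sum_le_sum fun j _ => (norm_sum_le _ _).trans
      (sum_le_sum fun c _ => le_of_eq ?_))
    rw [norm_div, norm_mul, norm_pow, Complex.norm_ofNat, div_mul_div_comm,
      Real.mul_self_sqrt (by positivity)]
  refine h2.trans ?_
  rw [sum_sigma' (range (n - 1)) (fun j => range (2 ^ j)) (fun j c =>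
    (‖avC n j c (fun i => F j i * sg n j i)‖ / √(2 ^ j))
        * (‖(if ∃ i ∈ nd n j c, F j i ≠ 0 then d j c else 0)‖ / √(2 ^ j)))]
  have cs := sum_mul_sq_le_sq_mul_sq ((range (n - 1)).sigma (fun j => range (2 ^ j)))
    (fun x : (_ : ℕ) × ℕ => ‖avC n x.1 x.2 (fun i => F x.1 i * sg n x.1 i)‖ / √(2 ^ x.1))
    (fun x : (_ : ℕ) × ℕ =>
      ‖(if ∃ i ∈ nd n x.1 x.2, F x.1 i ≠ 0 then d x.1 x.2 else 0)‖ / √(2 ^ x.1))
  have hA : ∑ x ∈ (range (n - 1)).sigma (fun j => range (2 ^ j)),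
      (‖avC n x.1 x.2 (fun i => F x.1 i * sg n x.1 i)‖ / √(2 ^ x.1)) ^ 2 ≤ 16 * M * m := by
    refine le_trans (le_of_eq ?_) (core hn F hM hdens hlast hvar)
    rw [sum_sigma]
    refine sum_congr rfl fun j _ => sum_congr rfl fun c _ => ?_
    simp only []
    rw [div_pow, Real.sq_sqrt (by positivity)]
  have hB : ∑ x ∈ (range (n - 1)).sigma (fun j => range (2 ^ j)),
      (‖(if ∃ i ∈ nd n x.1 x.2, F x.1 i ≠ 0 then d x.1 x.2 else 0)‖ / √(2 ^ x.1)) ^ 2
      = En n F d := by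
    unfold En
    rw [sum_sigma]
    refine sum_congr rfl fun j _ => sum_congr rfl fun c _ => ?_
    simp only []
    rw [div_pow, Real.sq_sqrt (by positivity)]
    split_ifs <;> simp
  rw [hB] at cs
  have h3 := cs.trans (mul_le_mul_of_nonneg_right hA hE)
  have h4 : (4 * √(M * m * En n F d)) ^ 2 = 16 * M * m * En n F d := by
    rw [mul_pow, Real.sq_sqrt (by positivity)]; ring
  rw [← h4] at h3
  exact le_of_sq_le_sq h3 (by positivity)

/-- the pending weights: `G i` for the levels `a i ≤ j < b i` -/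
noncomputable def pd (G : ℕ → ℂ) (a b : ℕ → ℕ) (j i : ℕ) : ℂ :=
  if a i ≤ j ∧ j < b i then G i else 0

theorem norm_pd_le (G : ℕ → ℂ) (a b : ℕ → ℕ) (j i : ℕ) : ‖pd G a b j i‖ ≤ ‖G i‖ := by
  unfold pd; split_ifs <;> simp

theorem pd_var (G : ℕ → ℂ) (a b : ℕ → ℕ) (k i : ℕ) :
    ∑ j ∈ range k, ‖pd G a b j i - pd G a b (j + 1) i‖ ≤ 2 * ‖G i‖ := by
  have h : ∀ j ∈ range k, ‖pd G a b j i - pd G a b (j + 1) i‖
      ≤ (if j + 1 = a i then ‖G i‖ else 0) + (if j + 1 = b i then ‖G i‖ else 0) := by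
    intro j _
    unfold pd
    have h0 := norm_nonneg (G i)
    split_ifs with h1 h2 h3 h4 h5 h6 h7 h8 <;> simp <;> omega
  refine (sum_le_sum h).trans ?_
  rw [sum_add_distrib]
  have h2 : ∀ t : ℕ, ∑ j ∈ range k, (if j + 1 = t then ‖G i‖ else 0) ≤ ‖G i‖ := by
    intro t
    rcases Nat.eq_zero_or_pos t with rfl | ht
    · simp
    · obtain ⟨t, rfl⟩ : ∃ s, t = s + 1 := ⟨t - 1, by omega⟩
      simp only [Nat.add_right_cancel_iff]
      rw [sum_ite_eq']
      split_ifs <;> simp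
  have := h2 (a i); have := h2 (b i); linarith

/-- **PEND, one letter, with entry and exit levels.** -/
theorem pend_letter {n : ℕ} (hn : 2 ≤ n) (G : ℕ → ℂ) (a b : ℕ → ℕ) (d : ℕ → ℕ → ℂ) {M : ℝ}
    (hM : 0 ≤ M)
    (hdens : ∀ j, j + 2 ≤ n → ∀ c < 2 ^ j, av n j c (fun i => ‖pd G a b j i‖) ≤ M) :
    ‖∑ j ∈ range (n - 1), (∑ i ∈ range (2 ^ n), pd G a b j i * sg n j i * d j (anc n j i)) / 2 ^ n‖
      ≤ 4 * √(M * ((∑ i ∈ range (2 ^ n), ‖G i‖) / 2 ^ n) * En n (pd G a b) d) := by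
  refine pend_one hn _ d hM hdens ?_ ?_
  · exact div_le_div_of_nonneg_right (sum_le_sum fun i _ => norm_pd_le _ _ _ _ _) (by positivity)
  · rw [← sum_div, sum_comm, ← mul_div_assoc, mul_sum]
    exact div_le_div_of_nonneg_right (sum_le_sum fun i _ => pd_var _ _ _ _ _) (by positivity)

/-- **PEND.** Many letters `u`; every leaf has weight `G u i`. -/
theorem pend {n : ℕ} (hn : 2 ≤ n) {U : Type*} [Fintype U] (G : U → ℕ → ℂ) (a b : U → ℕ → ℕ)
    (d : U → ℕ → ℕ → ℂ) {M : ℝ} (hM : 0 ≤ M)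
    (hdens : ∀ u j, j + 2 ≤ n → ∀ c < 2 ^ j,
      av n j c (fun i => ‖pd (G u) (a u) (b u) j i‖) ≤ M) :
    ∑ u, ‖∑ j ∈ range (n - 1), (∑ i ∈ range (2 ^ n),
        pd (G u) (a u) (b u) j i * sg n j i * d u j (anc n j i)) / 2 ^ n‖
      ≤ 4 * √(M * ((∑ i ∈ range (2 ^ n), ∑ u, ‖G u i‖) / 2 ^ n)
          * ∑ u, En n (pd (G u) (a u) (b u)) (d u)) := by
  have hE : ∀ u, 0 ≤ En n (pd (G u) (a u) (b u)) (d u) := fun u => En_nonneg _ _ _
  have hm : ∀ u, 0 ≤ (∑ i ∈ range (2 ^ n), ‖G u i‖) / (2:ℝ) ^ n := fun u => by positivity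
  have h1 : ∀ u ∈ univ, ‖∑ j ∈ range (n - 1), (∑ i ∈ range (2 ^ n),
        pd (G u) (a u) (b u) j i * sg n j i * d u j (anc n j i)) / (2:ℂ) ^ n‖
      ≤ 4 * √M * (√((∑ i ∈ range (2 ^ n), ‖G u i‖) / 2 ^ n)
          * √(En n (pd (G u) (a u) (b u)) (d u))) := by
    intro u _
    refine (pend_letter hn (G u) (a u) (b u) (d u) hM (hdens u)).trans (le_of_eq ?_)
    rw [Real.sqrt_mul (mul_nonneg hM (hm u)), Real.sqrt_mul hM]; ring
  refine (sum_le_sum h1).trans ?_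
  rw [← mul_sum]
  have cs := sum_mul_sq_le_sq_mul_sq univ
    (fun u => √((∑ i ∈ range (2 ^ n), ‖G u i‖) / 2 ^ n))
    (fun u => √(En n (pd (G u) (a u) (b u)) (d u)))
  simp only [Real.sq_sqrt (hm _), Real.sq_sqrt (hE _)] at cs
  have e : ∑ u, (∑ i ∈ range (2 ^ n), ‖G u i‖) / (2:ℝ) ^ n
      = (∑ i ∈ range (2 ^ n), ∑ u, ‖G u i‖) / 2 ^ n := by
    rw [← sum_div, sum_comm]
  rw [e] at cs
  have h2 : ∑ u, √((∑ i ∈ range (2 ^ n), ‖G u i‖) / 2 ^ n) * √(En n (pd (G u) (a u) (b u)) (d u))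
      ≤ √(((∑ i ∈ range (2 ^ n), ∑ u, ‖G u i‖) / 2 ^ n)
        * ∑ u, En n (pd (G u) (a u) (b u)) (d u)) := Real.le_sqrt_of_sq_le cs
  refine (mul_le_mul_of_nonneg_left h2 (by positivity)).trans (le_of_eq ?_)
  rw [mul_assoc M, Real.sqrt_mul hM, mul_assoc]

/-! ## the energy of a letter -/

theorem norm_sq_two (x0 x1 : ℂ) :
    ‖(x0 - x1) / 2‖ ^ 2 = (‖x0‖ ^ 2 + ‖x1‖ ^ 2) / 2 - ‖(x0 + x1) / 2‖ ^ 2 := by
  have h : ∀ z : ℂ, ‖z‖ ^ 2 = z.re ^ 2 + z.im ^ 2 := fun z => by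
    rw [← Complex.normSq_eq_norm_sq, Complex.normSq_apply]; ring
  simp only [h, Complex.div_ofNat_re, Complex.div_ofNat_im, Complex.add_re, Complex.add_im,
    Complex.sub_re, Complex.sub_im]
  ring

theorem level_energy {n j : ℕ} (hj : j < n) (F : ℕ → ℂ) :
    ∑ c ∈ range (2 ^ j), ‖(avC n (j + 1) (2 * c) F - avC n (j + 1) (2 * c + 1) F) / 2‖ ^ 2 / 2 ^ j
      = S n (j + 1) F - S n j F := by
  have h1 : S n (j + 1) F = ∑ c ∈ range (2 ^ j),
      (‖avC n (j + 1) (2 * c) F‖ ^ 2 + ‖avC n (j + 1) (2 * c + 1) F‖ ^ 2) / 2 / 2 ^ j := by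
    unfold S
    rw [show 2 ^ (j + 1) = 2 * 2 ^ j by ring, sum_two_mul]
    refine sum_congr rfl fun c _ => ?_
    rw [show (2:ℝ) ^ (j + 1) = 2 ^ j * 2 by ring]
    field_simp
  rw [h1]
  unfold S
  rw [← sum_sub_distrib]
  refine sum_congr rfl fun c _ => ?_
  rw [norm_sq_two, ← avC_split hj, sub_div]

theorem S_top {n : ℕ} (F : ℕ → ℂ) : S n n F = (∑ i ∈ range (2 ^ n), ‖F i‖ ^ 2) / 2 ^ n := by
  unfold S
  rw [sum_div]
  refine sum_congr rfl fun i _ => ?_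
  unfold avC nd
  simp

/-- the energy of the letter `ξ` on the nodes inside `R` -/
theorem En_dB_le {n : ℕ} (hn : 1 ≤ n) (p : ℕ → ℝ) (ξ : ℝ) (F : ℕ → ℕ → ℂ) (R : Finset ℕ)
    (hR : ∀ j c, (∃ i ∈ nd n j c, F j i ≠ 0) → nd n j c ⊆ R) :
    En n F (dB n p ξ) ≤ (∑ i ∈ range (2 ^ n) ∩ R, p i ^ 2) / 2 ^ n := by
  classical
  set q : ℕ → ℂ := fun i => if i ∈ R then (p i : ℂ) * e (-(ξ * i)) else 0 with hq
  have hne : ∀ t : ℝ, ‖e t‖ = 1 := fun t => by
    unfold e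
    rw [show 2 * (Real.pi : ℂ) * Complex.I * (t : ℂ) = ((2 * Real.pi * t : ℝ) : ℂ) * Complex.I by
      push_cast; ring]
    exact Complex.norm_exp_ofReal_mul_I _
  have h1 : En n F (dB n p ξ) ≤ ∑ j ∈ range (n - 1), (S n (j + 1) q - S n j q) := by
    unfold En
    refine sum_le_sum fun j hj => ?_
    rw [mem_range] at hj
    rw [← level_energy (by omega : j < n) q]
    refine sum_le_sum fun c _ => ?_
    split_ifs with hc
    · refine le_of_eq ?_
      have hs := hR j c hc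
      have e0 : avC n (j + 1) (2 * c) q = BB n p ξ (j + 1) (2 * c) := by
        unfold BB avC
        congr 1
        refine sum_congr rfl fun i hi => ?_
        have : i ∈ R := hs (by rw [nd_split (by omega : j < n)]; exact mem_union_left _ hi)
        simp [hq, this]
      have e1 : avC n (j + 1) (2 * c + 1) q = BB n p ξ (j + 1) (2 * c + 1) := by
        unfold BB avC
        congr 1
        refine sum_congr rfl fun i hi => ?_
        have : i ∈ R := hs (by rw [nd_split (by omega : j < n)]; exact mem_union_right _ hi)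
        simp [hq, this]
      rw [e0, e1]; rfl
    · positivity
  have h2 : ∀ k, ∑ j ∈ range k, (S n (j + 1) q - S n j q) = S n k q - S n 0 q := by
    intro k
    induction k with
    | zero => simp
    | succ k ih => rw [sum_range_succ, ih]; ring
  have h3 : S n (n - 1) q ≤ S n n q := by
    have := level_energy (by omega : n - 1 < n) q
    rw [show n - 1 + 1 = n by omega] at this
    have h4 : 0 ≤ S n n q - S n (n - 1) q := by
      rw [← this]; positivity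
    linarith
  rw [h2] at h1
  have h5 := S_nonneg n 0 q
  have h6 : S n n q = (∑ i ∈ range (2 ^ n) ∩ R, p i ^ 2) / 2 ^ n := by
    rw [S_top, ← filter_mem_eq_inter, sum_filter]
    congr 1
    refine sum_congr rfl fun i _ => ?_
    simp only [hq]
    split_ifs
    · rw [norm_mul, hne, mul_one, Complex.norm_real, Real.norm_eq_abs, sq_abs]
    · simp
  linarith

end Vale.Agent.P091.H733
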