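import Vale.Agent.P091.H733.Pend

/-!
# The waiting lemma in the form consumed by the grid row

One letter, fractional leaves: the weights `G j i` depend on the level `j`.
-/

open Finset Vale.Agent.P091.Spec

namespace Vale.Agent.P091.H733

/-- **WAIT LEMMA.**  The patterned averages of weights of density at most `m'` whose total
variation in the level is at most `Tot`. -/
theorem wait (n : ℕ) (G : ℕ → ℕ → ℂ) (nu : ℕ → ℕ → ℝ) (m' Tot : ℝ) (hm : 0 ≤ m')
    (h1 : ∀ j i, ‖G j i‖ ≤ nu j i)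
    (h2 : ∀ j < n - 1, ∀ a < 2 ^ j, av n j a (nu j) ≤ m')
    (h3 : ∀ j i, n - 1 ≤ j → G j i = 0)
    (h4 : ∑ i ∈ range (2 ^ n), ∑ j ∈ range (n - 1), ‖G j i - G (j + 1) i‖ ≤ Tot) :
    ∑ j ∈ range (n - 1), ∑ a ∈ range (2 ^ j),
      (1 / 2 ^ j) * ‖avC n j a (fun i => G j i * sg n j i)‖ ^ 2 ≤ 6 * m' * Tot / 2 ^ n := by
  have hT : 0 ≤ Tot := le_trans (by positivity) h4
  rcases Nat.lt_or_ge n 2 with hn | hn
  · have : n - 1 = 0 := by omega
    rw [this, range_zero, sum_empty]; positivity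
  have h2' : ∀ j < n - 1, ∀ a < 2 ^ j, av n j a (fun i => ‖G j i‖) ≤ m' := by
    intro j hj a ha
    refine le_trans ?_ (h2 j hj a ha)
    unfold av
    exact div_le_div_of_nonneg_right (sum_le_sum fun i _ => h1 j i) (by positivity)
  have d1 : ∀ j < n - 1, ∀ c < 2 ^ (j + 1), av n (j + 1) c (fun i => ‖G j i‖) ≤ 2 * m' := by
    intro j hj c hc
    refine (av_child_le (by omega) fun i => norm_nonneg _).trans ?_
    have := h2' j hj (c / 2) (by rw [pow_succ] at hc; omega)
    linarith
  have d2 : ∀ j < n - 1, ∀ c < 2 ^ (j + 2), av n (j + 2) c (fun i => ‖G j i‖) ≤ 4 * m' := by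
    intro j hj c hc
    refine (av_child_le (by omega) fun i => norm_nonneg _).trans ?_
    have := d1 j hj (c / 2) (by rw [pow_succ] at hc; omega)
    linarith
  have s1 : ∑ j ∈ range (n - 1), ∑ a ∈ range (2 ^ j),
      (1 / 2 ^ j) * ‖avC n j a (fun i => G j i * sg n j i)‖ ^ 2
      ≤ ∑ j ∈ range (n - 1), (S n (j + 2) (G j) - S n (j + 1) (G j)) := by
    refine sum_le_sum fun j hj => ?_
    rw [mem_range] at hj
    refine le_trans (le_of_eq ?_) (sum_sg_le (by omega) _)
    refine sum_congr rfl fun c _ => ?_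
    ring
  have s2 : ∑ j ∈ range (n - 1), (S n (j + 2) (G j) - S n (j + 1) (G j))
      = ∑ j ∈ range (n - 1), (S n (j + 2) (G j) - S n (j + 1 + 1) (G (j + 1)))
        + S n (n - 1 + 1) (G (n - 1)) - S n 1 (G 0) := by
    have key : ∀ k, ∑ j ∈ range k, (S n (j + 2) (G j) - S n (j + 1) (G j))
      = ∑ j ∈ range k, (S n (j + 2) (G j) - S n (j + 1 + 1) (G (j + 1)))
        + S n (k + 1) (G k) - S n 1 (G 0) := by
      intro k
      induction k with
      | zero => simp
      | succ k ih => rw [sum_range_succ, sum_range_succ, ih]; ring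
    exact key _
  have s3 : S n (n - 1 + 1) (G (n - 1)) = 0 := by
    unfold S avC
    refine sum_eq_zero fun c _ => ?_
    simp [h3 (n - 1) _ le_rfl]
  have s4 : ∀ j ∈ range (n - 1), S n (j + 2) (G j) - S n (j + 1 + 1) (G (j + 1))
      ≤ 6 * m' * ((∑ i ∈ range (2 ^ n), ‖G j i - G (j + 1) i‖) / 2 ^ n) := by
    intro j hj
    rw [mem_range] at hj
    refine S_sub_le (by omega) _ _ _ fun c hc => ?_
    have a1 := d2 j hj c hc
    have a2 : av n (j + 2) c (fun i => ‖G (j + 1) i‖) ≤ 2 * m' := by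
      rcases Nat.lt_or_ge (j + 1) (n - 1) with hh | hh
      · exact d1 (j + 1) hh c hc
      · have : (fun i => ‖G (j + 1) i‖) = fun _ => (0 : ℝ) := by
          funext i; rw [h3 _ _ hh, norm_zero]
        rw [this]; unfold av; simp; exact hm
    linarith
  have s5 := sum_le_sum s4
  have s6 : ∑ j ∈ range (n - 1), 6 * m' * ((∑ i ∈ range (2 ^ n), ‖G j i - G (j + 1) i‖) / 2 ^ n)
      ≤ 6 * m' * Tot / 2 ^ n := by
    rw [← mul_sum, ← sum_div, sum_comm, mul_div_assoc]
    exact mul_le_mul_of_nonneg_left (div_le_div_of_nonneg_right h4 (by positivity)) (by positivity)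
  have s7 := S_nonneg n 1 (G 0)
  linarith

/-- **Energy side.**  The differences of `F` over a family of nodes inside `V`. -/
theorem en (n : ℕ) (F : ℕ → ℂ) (V : Finset ℕ) (P : ℕ → ℕ → Prop)
    [∀ j, DecidablePred (P j)] (hV : ∀ j a, P j a → nd n j a ⊆ V) :
    ∑ j ∈ range n, ∑ a ∈ (range (2 ^ j)).filter (P j),
      (1 / 2 ^ j) * ‖(avC n (j + 1) (2 * a) F - avC n (j + 1) (2 * a + 1) F) / 2‖ ^ 2
      ≤ (1 / 2 ^ n) * ∑ i ∈ V, ‖F i‖ ^ 2 := by
  classical
  set q : ℕ → ℂ := fun i => if i ∈ V then F i else 0 with hq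
  have h1 : ∀ j ∈ range n, ∑ a ∈ (range (2 ^ j)).filter (P j),
      (1 / 2 ^ j) * ‖(avC n (j + 1) (2 * a) F - avC n (j + 1) (2 * a + 1) F) / 2‖ ^ 2
      ≤ S n (j + 1) q - S n j q := by
    intro j hj
    rw [mem_range] at hj
    rw [← level_energy (by omega : j < n) q, sum_filter]
    refine sum_le_sum fun c _ => ?_
    split_ifs with hc
    · have hs := hV j c hc
      have e0 : avC n (j + 1) (2 * c) F = avC n (j + 1) (2 * c) q := by
        unfold avC
        congr 1
        refine sum_congr rfl fun i hi => ?_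
        have : i ∈ V := hs (by rw [nd_split (by omega : j < n)]; exact mem_union_left _ hi)
        simp [hq, this]
      have e1 : avC n (j + 1) (2 * c + 1) F = avC n (j + 1) (2 * c + 1) q := by
        unfold avC
        congr 1
        refine sum_congr rfl fun i hi => ?_
        have : i ∈ V := hs (by rw [nd_split (by omega : j < n)]; exact mem_union_right _ hi)
        simp [hq, this]
      rw [e0, e1]
      exact le_of_eq (by ring)
    · positivity
  have h2 : ∀ k, ∑ j ∈ range k, (S n (j + 1) q - S n j q) = S n k q - S n 0 q := by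
    intro k
    induction k with
    | zero => simp
    | succ k ih => rw [sum_range_succ, ih]; ring
  refine (sum_le_sum h1).trans ?_
  rw [h2]
  have h5 := S_nonneg n 0 q
  have h6 : S n n q ≤ (1 / 2 ^ n) * ∑ i ∈ V, ‖F i‖ ^ 2 := by
    rw [S_top, div_eq_mul_inv, mul_comm, one_div]
    refine mul_le_mul_of_nonneg_left ?_ (by positivity)
    have : ∑ i ∈ range (2 ^ n), ‖q i‖ ^ 2 = ∑ i ∈ range (2 ^ n) ∩ V, ‖F i‖ ^ 2 := by
      rw [← filter_mem_eq_inter, sum_filter]
      refine sum_congr rfl fun i _ => ?_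
      simp only [hq]
      split_ifs <;> simp
    rw [this]
    exact sum_le_sum_of_subset_of_nonneg inter_subset_right fun _ _ _ => by positivity
  linarith

end Vale.Agent.P091.H733
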